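import Vale.Agent.P075R.Recur

set_option autoImplicit false

namespace Vale.Agent.P075R

open Finset Matrix Filter Topology

theorem homog_aux (T C S0 S1 S2 : ℝ) (hC : 0 ≤ C) (h0 : 0 ≤ S0) (h1 : 0 ≤ S1) (h2 : 0 ≤ S2)
    (h : ∀ a b c : ℝ, 0 < a → 0 < b → 0 < c →
      a * b * c * T ≤ C * (a ^ 3 * S0 + b ^ 3 * S1 + c ^ 3 * S2)) :
    T ≤ 3 * C * (S0 * S1 * S2) ^ (1 / 3 : ℝ) := by
  have key : ∀ δ : ℝ, 0 < δ →
      T ≤ 3 * C * ((S0 + δ) * (S1 + δ) * (S2 + δ)) ^ (1 / 3 : ℝ) := by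
    intro δ hδ
    have hp : ∀ S : ℝ, 0 ≤ S → 0 < ((S + δ) ^ (1 / 3 : ℝ))⁻¹ ∧
        (((S + δ) ^ (1 / 3 : ℝ))⁻¹) ^ 3 * S ≤ 1 := by
      intro S hS
      have h3 : 0 < S + δ := by linarith
      have h4 : 0 < (S + δ) ^ (1 / 3 : ℝ) := Real.rpow_pos_of_pos h3 _
      have h5 : ((S + δ) ^ (1 / 3 : ℝ)) ^ 3 = S + δ := by
        rw [← Real.rpow_natCast, ← Real.rpow_mul h3.le]
        norm_num
      refine ⟨inv_pos.2 h4, ?_⟩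
      rw [inv_pow, h5, inv_mul_le_iff₀ h3]
      linarith
    obtain ⟨pa, qa⟩ := hp S0 h0
    obtain ⟨pb, qb⟩ := hp S1 h1
    obtain ⟨pc, qc⟩ := hp S2 h2
    have hh := h _ _ _ pa pb pc
    have h6 : 0 < (S0 + δ) ^ (1 / 3 : ℝ) := inv_pos.1 pa
    have h7 : 0 < (S1 + δ) ^ (1 / 3 : ℝ) := inv_pos.1 pb
    have h8 : 0 < (S2 + δ) ^ (1 / 3 : ℝ) := inv_pos.1 pc
    have h9 : ((S0 + δ) * (S1 + δ) * (S2 + δ)) ^ (1 / 3 : ℝ) =
        (S0 + δ) ^ (1 / 3 : ℝ) * (S1 + δ) ^ (1 / 3 : ℝ) * (S2 + δ) ^ (1 / 3 : ℝ) := by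
      rw [Real.mul_rpow (by positivity) (by positivity), Real.mul_rpow (by positivity)
        (by positivity)]
    rw [h9]
    have h10 : ((S0 + δ) ^ (1 / 3 : ℝ))⁻¹ * ((S1 + δ) ^ (1 / 3 : ℝ))⁻¹ *
        ((S2 + δ) ^ (1 / 3 : ℝ))⁻¹ * T ≤ 3 * C := by
      refine hh.trans ?_
      have : C * ((((S0 + δ) ^ (1 / 3 : ℝ))⁻¹) ^ 3 * S0 + (((S1 + δ) ^ (1 / 3 : ℝ))⁻¹) ^ 3 * S1 +
          (((S2 + δ) ^ (1 / 3 : ℝ))⁻¹) ^ 3 * S2) ≤ C * 3 :=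
        mul_le_mul_of_nonneg_left (by linarith) hC
      linarith
    have h11 : ((S0 + δ) ^ (1 / 3 : ℝ))⁻¹ * ((S1 + δ) ^ (1 / 3 : ℝ))⁻¹ *
        ((S2 + δ) ^ (1 / 3 : ℝ))⁻¹ * T =
        ((S0 + δ) ^ (1 / 3 : ℝ) * (S1 + δ) ^ (1 / 3 : ℝ) * (S2 + δ) ^ (1 / 3 : ℝ))⁻¹ * T := by
      rw [mul_inv, mul_inv]
    rw [h11, inv_mul_le_iff₀ (by positivity)] at h10
    linarith
  have hcont : Tendsto (fun δ : ℝ => 3 * C * ((S0 + δ) * (S1 + δ) * (S2 + δ)) ^ (1 / 3 : ℝ))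
      (𝓝[>] 0) (𝓝 (3 * C * (S0 * S1 * S2) ^ (1 / 3 : ℝ))) := by
    have hc : Continuous fun δ : ℝ =>
        3 * C * ((S0 + δ) * (S1 + δ) * (S2 + δ)) ^ (1 / 3 : ℝ) := by
      refine continuous_const.mul ?_
      refine Continuous.rpow_const (by fun_prop) ?_
      intro x
      right
      norm_num
    have := (hc.tendsto 0).mono_left (nhdsWithin_le_nhds (s := Set.Ioi 0))
    simpa using this
  refine ge_of_tendsto hcont ?_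
  filter_upwards [self_mem_nhdsWithin] with δ hδ
  exact key δ hδ

theorem JN_smul (a b c : ℝ) (f0 f1 f2 : ℕ → ℕ → ℝ) (j p q w : ℕ) :
    JN (fun x y => a * f0 x y) (fun x y => b * f1 x y) (fun x y => c * f2 x y) j p q w =
      a * b * c * JN f0 f1 f2 j p q w := by
  unfold JN
  simp only [Finset.mul_sum]
  refine Finset.sum_congr rfl fun _ _ => Finset.sum_congr rfl fun _ _ =>
    Finset.sum_congr rfl fun _ _ => ?_
  ring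

theorem S3_smul (a : ℝ) (ha : 0 < a) (R : ℕ) (f : ℕ → ℕ → ℝ) :
    S3 R (fun x y => a * f x y) = a ^ 3 * S3 R f := by
  unfold S3
  simp only [Finset.mul_sum]
  refine Finset.sum_congr rfl fun _ _ => Finset.sum_congr rfl fun _ _ => ?_
  rw [abs_mul, abs_of_pos ha, mul_pow]

theorem S3_nonneg (R : ℕ) (f : ℕ → ℕ → ℝ) : 0 ≤ S3 R f :=
  Finset.sum_nonneg fun _ _ => Finset.sum_nonneg fun _ _ => pow_nonneg (abs_nonneg _) _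

/-- homogeneous version -/
theorem homog (C : ℝ) (hC : 0 ≤ C) (R : ℕ)
    (h : ∀ f0 f1 f2 : ℕ → ℕ → ℝ, ∑ j ∈ range R, ((2 : ℝ) ^ (j + 1))⁻¹ *
      ∑ X ∈ range (2 ^ (R - (j + 1))), ∑ Y ∈ range (2 ^ (R - (j + 1))),
        |JN f0 f1 f2 j X Y (X ^^^ Y)| ≤ C * (S3 R f0 + S3 R f1 + S3 R f2))
    (f0 f1 f2 : ℕ → ℕ → ℝ) :
    ∑ j ∈ range R, ((2 : ℝ) ^ (j + 1))⁻¹ *
      ∑ X ∈ range (2 ^ (R - (j + 1))), ∑ Y ∈ range (2 ^ (R - (j + 1))),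
        |JN f0 f1 f2 j X Y (X ^^^ Y)| ≤
      3 * C * (S3 R f0 * S3 R f1 * S3 R f2) ^ (1 / 3 : ℝ) := by
  refine homog_aux _ C _ _ _ hC (S3_nonneg _ _) (S3_nonneg _ _) (S3_nonneg _ _) ?_
  intro a b c ha hb hc
  have h1 := h (fun x y => a * f0 x y) (fun x y => b * f1 x y) (fun x y => c * f2 x y)
  rw [S3_smul a ha, S3_smul b hb, S3_smul c hc] at h1
  refine le_trans (le_of_eq ?_) h1
  rw [Finset.mul_sum]
  refine Finset.sum_congr rfl fun j _ => ?_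
  have h2 : ∀ X Y, |JN (fun x y => a * f0 x y) (fun x y => b * f1 x y) (fun x y => c * f2 x y)
      j X Y (X ^^^ Y)| = a * b * c * |JN f0 f1 f2 j X Y (X ^^^ Y)| := by
    intro X Y
    rw [JN_smul, abs_mul, abs_of_pos (by positivity : (0 : ℝ) < a * b * c)]
  simp only [h2, ← Finset.mul_sum]
  ring

end Vale.Agent.P075R
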