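import Mathlib

/-! P075: generic recursion from a local (Bellman) inequality to arrays on `ℕ × ℕ`. -/

set_option autoImplicit false

namespace Vale.Agent.P075R

open Finset Matrix

/-- sign of `a ∈ [0, 2^(j+1))`: `+1` on the left half, `-1` on the right half. -/
def sg (j a : ℕ) : ℝ := if a < 2 ^ j then 1 else -1

/-- discrete local form at level `j+1` of the node `(p, q, w)`. -/
def JN (f0 f1 f2 : ℕ → ℕ → ℝ) (j p q w : ℕ) : ℝ :=
  ∑ a ∈ Finset.range (2 ^ (j + 1)), ∑ b ∈ Finset.range (2 ^ (j + 1)),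
    ∑ c ∈ Finset.range (2 ^ (j + 1)),
      sg j a * sg j b * sg j c *
        (f0 (p * 2 ^ (j + 1) + a) (q * 2 ^ (j + 1) + b) *
         f1 (q * 2 ^ (j + 1) + b) (w * 2 ^ (j + 1) + c) *
         f2 (w * 2 ^ (j + 1) + c) (p * 2 ^ (j + 1) + a))

/-- cubic sums. -/
def S3 (R : ℕ) (f : ℕ → ℕ → ℝ) : ℝ :=
  ∑ a ∈ Finset.range (2 ^ R), ∑ b ∈ Finset.range (2 ^ R), |f a b| ^ 3

/-- index types -/
def Ix (β : Type) : ℕ → Type
  | 0 => Unit
  | (k + 1) => β × Ix β k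

instance instFt (β : Type) [Fintype β] : ∀ k, Fintype (Ix β k)
  | 0 => inferInstanceAs (Fintype Unit)
  | (k + 1) => letI := instFt β k; inferInstanceAs (Fintype (β × Ix β k))

instance instDe (β : Type) [DecidableEq β] : ∀ k, DecidableEq (Ix β k)
  | 0 => inferInstanceAs (DecidableEq Unit)
  | (k + 1) => letI := instDe β k; inferInstanceAs (DecidableEq (β × Ix β k))

/-- the sign of a Boolean -/
def sB (b : Bool) : ℝ := if b then -1 else 1

/-- blocks -/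
def bk {β ι : Type} (A : Matrix (β × ι) (β × ι) ℝ) (i j : β) : Matrix ι ι ℝ :=
  fun a b => A (i, a) (j, b)

section

variable {β : Type} (e : β → Bool)

/-- value of an index -/
def val : ∀ k, Ix β k → ℕ
  | 0, _ => 0
  | (k + 1), a => (e a.1).toNat * 2 ^ k + val k a.2

theorem val_lt : ∀ k (a : Ix β k), val e k a < 2 ^ k
  | 0, _ => by simp [val]
  | (k + 1), a => by
    have h := val_lt k a.2
    have h1 : (e a.1).toNat ≤ 1 := Bool.toNat_le _
    have h2 : (e a.1).toNat * 2 ^ k ≤ 1 * 2 ^ k := Nat.mul_le_mul_right _ h1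
    show (e a.1).toNat * 2 ^ k + val e k a.2 < 2 ^ (k + 1)
    rw [pow_succ]
    omega

theorem sg_val (k : ℕ) (i : β) (a : Ix β k) :
    sg k (val e (k + 1) ((i, a) : β × Ix β k)) = sB (e i) := by
  have h := val_lt e k a
  have h0 : val e (k + 1) ((i, a) : β × Ix β k) = (e i).toNat * 2 ^ k + val e k a := rfl
  unfold sg sB
  rw [h0]
  generalize e i = b
  cases b
  · rw [if_pos (by simpa using h)]
    simp
  · rw [if_neg (by simp)]
    simp

/-- cells -/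
def cell (f : ℕ → ℕ → ℝ) (k X Y : ℕ) : Matrix (Ix β k) (Ix β k) ℝ :=
  fun a b => f (X * 2 ^ k + val e k a) (Y * 2 ^ k + val e k b)

theorem bk_cell (f : ℕ → ℕ → ℝ) (k X Y : ℕ) (i j : β) :
    bk (show Matrix (β × Ix β k) (β × Ix β k) ℝ from cell e f (k + 1) X Y) i j =
      cell e f k (2 * X + (e i).toNat) (2 * Y + (e j).toNat) := by
  ext a b
  simp only [bk, cell, val]
  congr 1 <;> ring

variable [Fintype β] (hs : ∀ g : Bool → ℝ, ∑ b, g (e b) = g false + g true)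

include hs in
theorem sum_val : ∀ k (g : ℕ → ℝ), ∑ a : Ix β k, g (val e k a) = ∑ a ∈ range (2 ^ k), g a
  | 0, g => by
    simp only [pow_zero, range_one, sum_singleton]
    exact (Fintype.sum_unique (fun a : Unit => g (val e 0 a))).trans rfl
  | (k + 1), g => by
    have h1 : ∑ a : Ix β (k + 1), g (val e (k + 1) a) =
        ∑ i : β, ∑ a : Ix β k, g ((e i).toNat * 2 ^ k + val e k a) :=
      Fintype.sum_prod_type (fun a : β × Ix β k => g ((e a.1).toNat * 2 ^ k + val e k a.2))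
    rw [h1]
    have h2 : ∀ i : β, ∑ a : Ix β k, g ((e i).toNat * 2 ^ k + val e k a) =
        (fun b : Bool => ∑ a ∈ range (2 ^ k), g (b.toNat * 2 ^ k + a)) (e i) := by
      intro i
      exact sum_val k (fun n => g ((e i).toNat * 2 ^ k + n))
    rw [Finset.sum_congr rfl fun i _ => h2 i,
      hs (fun b : Bool => ∑ a ∈ range (2 ^ k), g (b.toNat * 2 ^ k + a)), pow_succ, mul_two,
      sum_range_add]
    simp

end

theorem xor_step (X Y : ℕ) (a b : Bool) :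
    (2 * X + a.toNat) ^^^ (2 * Y + b.toNat) = 2 * (X ^^^ Y) + (xor a b).toNat := by
  have h : ∀ (n : ℕ) (c : Bool), 2 * n + c.toNat = Nat.bit c n := by
    intro n c
    cases c <;> simp [Nat.bit]
  rw [h, h, h, Nat.xor_bit]

theorem sum_double (n : ℕ) (g : ℕ → ℝ) :
    ∑ x ∈ range (2 * n), g x = ∑ x ∈ range n, (g (2 * x) + g (2 * x + 1)) := by
  induction n with
  | zero => simp
  | succ n ih =>
    rw [show 2 * (n + 1) = 2 * n + 1 + 1 by ring, sum_range_succ, sum_range_succ, ih,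
      sum_range_succ]
    ring


/-- third index -/
theorem main_sum {β : Type} (e : β → Bool) [Fintype β]
    (hs : ∀ g : Bool → ℝ, ∑ b, g (e b) = g false + g true) (n : ℕ) (G : ℕ → ℕ → ℝ) :
    ∑ X ∈ range (2 * n), ∑ Y ∈ range (2 * n), G X Y =
      ∑ X ∈ range n, ∑ Y ∈ range n, ∑ i : β, ∑ j : β,
        G (2 * X + (e i).toNat) (2 * Y + (e j).toNat) := by
  rw [sum_double]
  refine Finset.sum_congr rfl fun X _ => ?_
  have h1 : ∀ x, ∑ Y ∈ range (2 * n), G x Y =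
      ∑ Y ∈ range n, ∑ j : β, G x (2 * Y + (e j).toNat) := by
    intro x
    rw [sum_double]
    refine Finset.sum_congr rfl fun Y _ => ?_
    rw [hs (fun b => G x (2 * Y + b.toNat))]
    simp
  rw [h1, h1, ← Finset.sum_add_distrib]
  refine Finset.sum_congr rfl fun Y _ => ?_
  rw [hs (fun b => ∑ j : β, G (2 * X + b.toNat) (2 * Y + (e j).toNat))]
  simp

/-- the cell form in terms of the array -/
theorem JN_eq {β : Type} (e : β → Bool) [Fintype β]
    (hs : ∀ g : Bool → ℝ, ∑ b, g (e b) = g false + g true) (f0 f1 f2 : ℕ → ℕ → ℝ)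
    (k X Y Z : ℕ) :
    (∑ x : β × Ix β k, ∑ y : β × Ix β k, ∑ z : β × Ix β k,
      sB (e x.1) * sB (e y.1) * sB (e z.1) *
        (cell e f0 (k + 1) X Y x y * cell e f1 (k + 1) Y Z y z * cell e f2 (k + 1) Z X z x)) =
      JN f0 f1 f2 k X Y Z := by
  have hsg : ∀ x : β × Ix β k, sB (e x.1) = sg k (val e (k + 1) x) := by
    intro x
    exact (sg_val e k x.1 x.2).symm
  unfold JN
  rw [← sum_val e hs (k + 1)]
  refine Finset.sum_congr rfl fun x _ => ?_
  rw [← sum_val e hs (k + 1)]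
  refine Finset.sum_congr rfl fun y _ => ?_
  rw [← sum_val e hs (k + 1)]
  refine Finset.sum_congr rfl fun z _ => ?_
  rw [hsg x, hsg y, hsg z]
  rfl

/-- reindexing by xor -/
theorem sum_xor_right (R : ℕ) (g : ℕ → ℕ → ℝ) :
    ∑ x ∈ range (2 ^ R), ∑ y ∈ range (2 ^ R), g y (x ^^^ y) =
      ∑ x ∈ range (2 ^ R), ∑ y ∈ range (2 ^ R), g x y := by
  rw [Finset.sum_comm]
  refine Finset.sum_congr rfl fun y hy => ?_
  rw [mem_range] at hy
  refine Finset.sum_nbij' (fun x => x ^^^ y) (fun x => x ^^^ y) ?_ ?_ ?_ ?_ ?_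
  · intro x hx
    rw [mem_range] at hx ⊢
    exact Nat.xor_lt_two_pow hx hy
  · intro x hx
    rw [mem_range] at hx ⊢
    exact Nat.xor_lt_two_pow hx hy
  · intro x _
    simp [Nat.xor_assoc]
  · intro x _
    simp [Nat.xor_assoc]
  · intro x _
    rfl

theorem sum_xor_left (R : ℕ) (g : ℕ → ℕ → ℝ) :
    ∑ x ∈ range (2 ^ R), ∑ y ∈ range (2 ^ R), g (x ^^^ y) x =
      ∑ x ∈ range (2 ^ R), ∑ y ∈ range (2 ^ R), g x y := by
  rw [Finset.sum_comm (f := fun x y => g x y)]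
  refine Finset.sum_congr rfl fun x hx => ?_
  rw [mem_range] at hx
  refine Finset.sum_nbij' (fun y => x ^^^ y) (fun y => x ^^^ y) ?_ ?_ ?_ ?_ ?_
  · intro y hy
    rw [mem_range] at hy ⊢
    exact Nat.xor_lt_two_pow hx hy
  · intro y hy
    rw [mem_range] at hy ⊢
    exact Nat.xor_lt_two_pow hx hy
  · intro y _
    simp [← Nat.xor_assoc]
  · intro y _
    simp [← Nat.xor_assoc]
  · intro y _
    rfl

theorem aux_lin (K a : ℝ) (s : Finset ℕ) (F G : ℕ → ℕ → ℝ) :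
    K * (a * ∑ X ∈ s, ∑ Y ∈ s, F X Y - a * ∑ X ∈ s, ∑ Y ∈ s, G X Y) =
      a * ∑ X ∈ s, ∑ Y ∈ s, (K * (F X Y - G X Y)) := by
  simp only [Finset.mul_sum, ← Finset.sum_sub_distrib]
  refine Finset.sum_congr rfl fun X _ => Finset.sum_congr rfl fun Y _ => ?_
  ring

section recursion

variable {β : Type} [Fintype β] (e : β → Bool) (t : β → β → β)
  (ht : ∀ i j, e (t i j) = xor (e i) (e j))
  (hs : ∀ g : Bool → ℝ, ∑ b, g (e b) = g false + g true)
  (ψ : ∀ k, Matrix (Ix β k) (Ix β k) ℝ → Matrix (Ix β k) (Ix β k) ℝ →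
    Matrix (Ix β k) (Ix β k) ℝ → ℝ) (K c : ℝ) (hK : 0 ≤ K)
  (h0 : ∀ k A B C, 0 ≤ ψ k A B C)
  (hleaf : ∀ A B C : Matrix Unit Unit ℝ,
    ψ 0 A B C ≤ c * (|A () ()| ^ 3 + |B () ()| ^ 3 + |C () ()| ^ 3))
  (hloc : ∀ k (A B C : Matrix (β × Ix β k) (β × Ix β k) ℝ),
    |∑ x, ∑ y, ∑ z, sB (e x.1) * sB (e y.1) * sB (e z.1) * (A x y * B y z * C z x)| ≤
      K * (2 * ∑ i, ∑ j, ψ k (bk A i j) (bk B j (t i j)) (bk C (t i j) i) - ψ (k + 1) A B C))

/-- total potential at level `k`, for arrays supported in `[0,2^R)²` -/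
noncomputable def Pot (R : ℕ) (f0 f1 f2 : ℕ → ℕ → ℝ) (k : ℕ) : ℝ :=
  ((2 : ℝ) ^ k)⁻¹ * ∑ X ∈ range (2 ^ (R - k)), ∑ Y ∈ range (2 ^ (R - k)),
    ψ k (cell e f0 k X Y) (cell e f1 k Y (X ^^^ Y)) (cell e f2 k (X ^^^ Y) X)

include ht hs hloc in
theorem pot_step (R : ℕ) (f0 f1 f2 : ℕ → ℕ → ℝ) (k : ℕ) (hk : k < R) :
    ((2 : ℝ) ^ (k + 1))⁻¹ * ∑ X ∈ range (2 ^ (R - (k + 1))), ∑ Y ∈ range (2 ^ (R - (k + 1))),
      |JN f0 f1 f2 k X Y (X ^^^ Y)| ≤
      K * (Pot e ψ R f0 f1 f2 k - Pot e ψ R f0 f1 f2 (k + 1)) := by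
  have h1 : Pot e ψ R f0 f1 f2 k = ((2 : ℝ) ^ (k + 1))⁻¹ *
      ∑ X ∈ range (2 ^ (R - (k + 1))), ∑ Y ∈ range (2 ^ (R - (k + 1))),
        (2 * ∑ i : β, ∑ j : β,
          ψ k (bk (show Matrix (β × Ix β k) (β × Ix β k) ℝ from cell e f0 (k + 1) X Y) i j)
            (bk (show Matrix (β × Ix β k) (β × Ix β k) ℝ from
              cell e f1 (k + 1) Y (X ^^^ Y)) j (t i j))
            (bk (show Matrix (β × Ix β k) (β × Ix β k) ℝ from
              cell e f2 (k + 1) (X ^^^ Y) X) (t i j) i)) := by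
    unfold Pot
    have hR : 2 ^ (R - k) = 2 * 2 ^ (R - (k + 1)) := by
      rw [← pow_succ']
      congr 1
      omega
    rw [hR, main_sum e hs, pow_succ, mul_inv, mul_assoc]
    congr 1
    rw [Finset.mul_sum]
    refine Finset.sum_congr rfl fun X _ => ?_
    rw [Finset.mul_sum]
    refine Finset.sum_congr rfl fun Y _ => ?_
    rw [← mul_assoc, inv_mul_cancel₀ (two_ne_zero), one_mul]
    refine Finset.sum_congr rfl fun i _ => Finset.sum_congr rfl fun j _ => ?_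
    rw [bk_cell, bk_cell, bk_cell, ht, xor_step]
  have h2 : K * (Pot e ψ R f0 f1 f2 k - Pot e ψ R f0 f1 f2 (k + 1)) =
      ((2 : ℝ) ^ (k + 1))⁻¹ *
      ∑ X ∈ range (2 ^ (R - (k + 1))), ∑ Y ∈ range (2 ^ (R - (k + 1))),
        (K * (2 * ∑ i : β, ∑ j : β,
          ψ k (bk (show Matrix (β × Ix β k) (β × Ix β k) ℝ from cell e f0 (k + 1) X Y) i j)
            (bk (show Matrix (β × Ix β k) (β × Ix β k) ℝ from
              cell e f1 (k + 1) Y (X ^^^ Y)) j (t i j))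
            (bk (show Matrix (β × Ix β k) (β × Ix β k) ℝ from
              cell e f2 (k + 1) (X ^^^ Y) X) (t i j) i) -
          ψ (k + 1) (cell e f0 (k + 1) X Y) (cell e f1 (k + 1) Y (X ^^^ Y))
            (cell e f2 (k + 1) (X ^^^ Y) X))) := by
    rw [h1]
    unfold Pot
    exact aux_lin _ _ _ _ _
  rw [h2]
  refine mul_le_mul_of_nonneg_left ?_ (by positivity)
  refine Finset.sum_le_sum fun X _ => Finset.sum_le_sum fun Y _ => ?_
  rw [← JN_eq e hs]
  exact hloc k _ _ _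

include ht hs hloc hK h0 hleaf in
theorem recur_sum (R : ℕ) (f0 f1 f2 : ℕ → ℕ → ℝ) :
    ∑ j ∈ range R, ((2 : ℝ) ^ (j + 1))⁻¹ *
      ∑ X ∈ range (2 ^ (R - (j + 1))), ∑ Y ∈ range (2 ^ (R - (j + 1))),
        |JN f0 f1 f2 j X Y (X ^^^ Y)| ≤ K * c * (S3 R f0 + S3 R f1 + S3 R f2) := by
  have h1 : ∑ j ∈ range R, ((2 : ℝ) ^ (j + 1))⁻¹ *
      ∑ X ∈ range (2 ^ (R - (j + 1))), ∑ Y ∈ range (2 ^ (R - (j + 1))),
        |JN f0 f1 f2 j X Y (X ^^^ Y)| ≤
      ∑ j ∈ range R, K * (Pot e ψ R f0 f1 f2 j - Pot e ψ R f0 f1 f2 (j + 1)) :=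
    Finset.sum_le_sum fun j hj =>
      pot_step e t ht hs ψ K hloc R f0 f1 f2 j (mem_range.1 hj)
  rw [← Finset.mul_sum, Finset.sum_range_sub'] at h1
  refine h1.trans ?_
  have h2 : 0 ≤ Pot e ψ R f0 f1 f2 R := by
    unfold Pot
    refine mul_nonneg (by positivity) ?_
    exact Finset.sum_nonneg fun _ _ => Finset.sum_nonneg fun _ _ => h0 _ _ _ _
  have h3 : Pot e ψ R f0 f1 f2 0 ≤ c * (S3 R f0 + S3 R f1 + S3 R f2) := by
    unfold Pot S3
    rw [pow_zero, inv_one, one_mul, Nat.sub_zero,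
      ← sum_xor_right R (fun x y => |f1 x y| ^ 3), ← sum_xor_left R (fun x y => |f2 x y| ^ 3),
      ← Finset.sum_add_distrib, ← Finset.sum_add_distrib, Finset.mul_sum]
    refine Finset.sum_le_sum fun X _ => ?_
    rw [← Finset.sum_add_distrib, ← Finset.sum_add_distrib, Finset.mul_sum]
    refine Finset.sum_le_sum fun Y _ => ?_
    have := hleaf (cell e f0 0 X Y) (cell e f1 0 Y (X ^^^ Y)) (cell e f2 0 (X ^^^ Y) X)
    simpa [cell, val] using this
  calc K * (Pot e ψ R f0 f1 f2 0 - Pot e ψ R f0 f1 f2 R)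
      ≤ K * (c * (S3 R f0 + S3 R f1 + S3 R f2)) :=
        mul_le_mul_of_nonneg_left (by linarith) hK
    _ = K * c * (S3 R f0 + S3 R f1 + S3 R f2) := by ring

end recursion

end Vale.Agent.P075R
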